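import Mathlib

/-! # P046: the random triangle removal process -/

namespace Vale.Agent.P046

/-- delete the edges spanned by the vertex set `T` (the three edges of a triangle `T`). -/
def rem {V : Type} (G : SimpleGraph V) (T : Finset V) : SimpleGraph V where
  Adj a b := G.Adj a b ∧ ¬(a ∈ T ∧ b ∈ T)
  symm := ⟨fun _ _ h => ⟨h.1.symm, fun h' => h.2 h'.symm⟩⟩
  loopless := ⟨fun _ h => h.1.ne rfl⟩

open Classical in
/-- one step: if there is a triangle, delete the edges of a uniformly random triangle;
otherwise stay. -/
noncomputable def step {n : ℕ} (G : SimpleGraph (Fin n)) : PMF (SimpleGraph (Fin n)) :=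
  if h : (G.cliqueFinset 3).Nonempty then (PMF.uniformOfFinset (G.cliqueFinset 3) h).map (rem G)
  else PMF.pure G

/-- law of the graph after `k` steps, started from the complete graph `K_n`. -/
noncomputable def law (n : ℕ) : ℕ → PMF (SimpleGraph (Fin n))
  | 0 => PMF.pure ⊤
  | k + 1 => (law n k).bind step

/-- law of the final graph: after `n.choose 2` steps the process has stopped. -/
noncomputable def final (n : ℕ) : PMF (SimpleGraph (Fin n)) := law n (n.choose 2)

open Classical in
/-- expectation of a function of the final graph. -/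
noncomputable def expFinal (n : ℕ) (f : SimpleGraph (Fin n) → ℝ) : ℝ :=
  ∑ G : SimpleGraph (Fin n), (final n G).toReal * f G

/-- the normalised number of edges `e(G) / n^(3/2)`. -/
noncomputable def normEdges {n : ℕ} (G : SimpleGraph (Fin n)) : ℝ :=
  (G.edgeSet.ncard : ℝ) / (n : ℝ) ^ ((3 : ℝ) / 2)

end Vale.Agent.P046
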